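import Vale.Agent.P100.Weights

namespace Vale.Agent.Results.P100.LowWeights

open Vale.Agent.P100

/-- The Hénon-Lane-Emden system has no positive entire solution on `ℝ^n`, `n ≥ 2`, when `n = 2`
(all real weights and exponents) or when one of the weights is at most `-2` (every `n`). -/
theorem result : ∀ n : ℕ, 2 ≤ n → ∀ A B p q : ℝ, (n = 2 ∨ A ≤ -2 ∨ B ≤ -2) →
    ∀ u v : Eu n → ℝ, ¬ IsPositiveEntireSolution n A B p q u v :=
  fun n hn A B p q h u v => no_solution n hn A B p q h u v

end Vale.Agent.Results.P100.LowWeights
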