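import Vale.Agent.P100.Separated

open scoped ContDiff

namespace Vale.Agent.Results.P100.NoSeparatedSolution

open Vale.Agent.P100

/-- For all parameters, a component `u` of a positive entire solution of the Hénon-Lane-Emden system
(only the equation `-Δu = |x|^A v^p` off the origin is used, with `v > 0`) is neither a sum nor a
product of `C²` functions of one coordinate. -/
theorem result {n : ℕ} (hn : 2 ≤ n) (p A : ℝ) (u v : (Fin n → ℝ) → ℝ)
    (hu : ∀ x, 0 < u x) (hv : ∀ x, 0 < v x)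
    (heq : ∀ x : Fin n → ℝ, x ≠ 0 →
      -(coordLaplacian u x) = (Real.sqrt (∑ i, x i ^ 2)) ^ A * v x ^ p) :
    (¬ ∃ f : Fin n → ℝ → ℝ, (∀ i, ContDiff ℝ 2 (f i)) ∧ u = fun x => ∑ i, f i (x i)) ∧
    (¬ ∃ f : Fin n → ℝ → ℝ, (∀ i, ContDiff ℝ 2 (f i)) ∧ (∀ i t, 0 < f i t) ∧
      u = fun x => ∏ i, f i (x i)) := by
  have hneg : ∀ x : Fin n → ℝ, x ≠ 0 → coordLaplacian u x < 0 := by
    intro x hx
    have h1 : 0 < ∑ i, x i ^ 2 := by
      obtain ⟨i, hi⟩ := Function.ne_iff.mp hx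
      have hi' : x i ≠ 0 := hi
      have h2 : 0 < x i ^ 2 := by positivity
      have h3 : x i ^ 2 ≤ ∑ j, x j ^ 2 :=
        Finset.single_le_sum (f := fun j => x j ^ 2) (fun j _ => sq_nonneg _) (Finset.mem_univ i)
      linarith
    have h2 : 0 < (Real.sqrt (∑ i, x i ^ 2)) ^ A * v x ^ p :=
      mul_pos (Real.rpow_pos_of_pos (Real.sqrt_pos.mpr h1) _) (Real.rpow_pos_of_pos (hv x) _)
    have h3 := heq x hx
    linarith
  constructor
  · rintro ⟨f, hf, rfl⟩
    exact no_sum hn f hf hu hneg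
  · rintro ⟨f, hf, hfpos, rfl⟩
    exact no_product hn f hf hfpos hneg

end Vale.Agent.Results.P100.NoSeparatedSolution
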